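import Vale.Agent.Snaky.Fast

namespace Vale.Agent.Snaky.Data.L110

theorem n510 : Valid 8 2636082301490154130553049906847254995431463155255029277207473968327248582424699924015062902013998549111281783574328649486254843391891191224028426863788181946368 2568425737550851836746711929573743819440381220581280485630977672187127508390858752857226275723419108640015597304694413457229626053339148364134723492863905262302730286988922574110676692740476421471522667888640 :=
  Fast.check_sound (s := 46350042123273625195428299560226993393176450777746567449712100056563638302854649129588908519474016656983443720425223998515298236845062426545631060892215023565796722151726493402995018151271288751629786913423682462385481514187264944448784620765209675452997587887644662117375892482228304526659200024958043145492213700566679778342345967828230398447005995040929297203091717982764632061089090859004596659583577812685071677263200070550268979978716500786205113969441848772336955657860535703531889806300048480590211274279793780006413915821334533463216001335069164703378651484342622412882103870590462316874470333043146280366916964138710042990752016110662988331459541433679738993757098073313966191406356271297610761063562585500480765938922270806623753970838971418121560503366659026944309587983115993147246061878410908005861410266753382784339716034506808757707702499200835648590711373475791440913017763371660587307992216473195639326075500336295980982550748815114182333015147421483041837878874450709704848854398117719427290301400475954526214997451381182056012712854847926198508224875443765133316186340161850055743837352011773527037085609050463161228148826316871004460197305485316022516574438559829879883142026156538838783737141893576085272813645758770602381647123566264097573563885466129175291255480079768168647439280464002879985749721110771766930795622800443678273866934691602364181400149708893687955582830160966841390178421552189656078670430204086944464710240099927083708428733344170333827300482552042417438793776342847230050947980124772030541716479294913785221673624532508692360864731399865141441417276002658173783805410577639096917726847424928953375)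 (by decide +kernel)

theorem root : Valid 8 2636082301490154130553049906847254995431463155255029277207473968327248582424699924015062902013998549111281783574328649486254843391891191224028426863788181946368 2568425737550851836746711929573743819440381220581280485630977672187127508390858752857226275723419108640015597304694413457229626053339148364134723492863905262302730286988922574110676692740476421471522667888640 := n510

end Vale.Agent.Snaky.Data.L110
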