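import Vale.Agent.Snaky.Fast

namespace Vale.Agent.Snaky.Data.L111

theorem n1042 : Valid 8 2636082301490154130553049906847254995431463155255029277207473968327248582424699924015062902013998549111281783574328649486254843391891191224028426863788181946368 12842128670075641275318050024292204953533321130997356859351865712265631260240539283849624411140920894781948233675694426332488617482028438944591099087653625001492117951995327406406644538242017678957346321072128 :=
  Fast.check_sound (s := 22696099711909250143102096597888871438295842306430253751383985995722681748739783429900582787764333920758308956749503943625303273642542549749362059695245247482732814381777338635703658008662207985780890232808130470363873750141782736207032751071370580919707030736931366176656345986012543417698892846771624773466731664020082692905431019840805338834280774884199740794194755732166305644454095676280056927707003663693072139188073754121689507795097387540606113189098017240841262078752392450585512883367763056469144134919420167039808615457974716695898026695238890569742750124747961365059807129759480236542843358816401012297985616024606822658612529141005864712903630948623371227635298375632572705345997206076062756628047928373065436550439600470028576515986622828368355850192229798036182015866997962958559388754104651765080119589824349418974890415855431429765368265876529677529060330624769258615456429018217772819345287736616492810632411882103982505926210241291782300798501225019542644562000095678194575761993874026016577932900931101037651484690097719671135076111594283195452682221032150893443635289096350252912389538628955331528124475858279405070070842445159936440503800211493039882286698309285917524907813349310324264603354613539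99410028745442572112401481319164523819551634062841879465248432819129119996105348935096673237021298466359053165763779660451657552898260265142960975896949195534328803937750783221513534070857425091604078008624880986976405548605720202816287168410440385373933015341128156685195366987543611676574903571557177602588168028654632888090376947476466321646534040098510277423758074587390428477074823021847224284787449418544596080446817802566381266422057347796189191509919304123304198056044837453616175560680734288312465655186080660071086744128746678046197185641429970141104505578156807520774518007335965806497026140918779768100046089630217207928431986023351777302422458312489821846868343227874528464125900070068075278617727000380493829825846150733878848433254393260734983702289484323280553886141599924301463490555416170191870010362121592831510474993047532699507745753042292964634832145123008994902815781) (by decide +kernel)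

theorem root : Valid 8 2636082301490154130553049906847254995431463155255029277207473968327248582424699924015062902013998549111281783574328649486254843391891191224028426863788181946368 12842128670075641275318050024292204953533321130997356859351865712265631260240539283849624411140920894781948233675694426332488617482028438944591099087653625001492117951995327406406644538242017678957346321072128 := n1042

end Vale.Agent.Snaky.Data.L111
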