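import Vale.Agent.Snaky.Fast

namespace Vale.Agent.Snaky.Data.L113

theorem n164 : Valid 8 2636082301490154130553049906847254995431463155255029277207473968327248582424699924015062902013998549111281783574328649486254843391891191224028426863788181946368 2990041084174332984147711448946170678673403908490414719019396560019938887088818128899950434498746418686280384101423609182057712733143496777438311904305218576451500526674312281007846952932205505019904 :=
  Fast.check_sound (s := 1204654768129166236750010036306059449263195114609387421023907947036034548709776592946442142103055406967153948928893174788314051563866418654768945147850876122889342903309466415736623150778365178615464407228829436302991695831628810105986966152583942277621191734035327836471290007826955376995891565961690229645005550143911047658527332030213121419122876606582642912572920901303863353500926988565840107787047504448182207171324396523791281357311283278188172563398484855228321419080518897640070899121329397063664715426115782597272169339098353062314605167191148114614173145971421616871671633565180785988067295298402849446755173836763586039063106930306319200557080599142718421892736949977669600260055584383288252956856783095773228184786743553907697117630771805658195188423301124792769032142238869319057294985375856544933259501286890477163785957403111543197162540958038187309574507863903520788769741488047955778800992961261686083238600964699684321646075877686616603082509056675486948656034882945230623464348036349190933216820864143277090752427503361939114019912802025854698631544395282293813267905785487114233891110079142746929988651274792922610514475166891308767925150224183814347650796478612981701887978309854692664063125492563343851498836725164537326037044534308730651317506060134114909844642266037191596319624080058856297911044292301649233698028533065411728167427128199098357236791342859868213924755423029326020340668002784479629875941905139693577022549544806387509071762900269636111379693101853892728531071658151198560603122299462409828053705771111715863083244805132610318793228237293357164733521278394073490532308538313068101351275275333934169064970886302499900106847864792039059756343536977442843937294348735526028272206030436581984817507958074831416488161936255180205060429447177731462875121122779342695769595081880378248440324492534072900119496016723650427423650799385974285546527)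 (by decide +kernel)

theorem root : Valid 8 2636082301490154130553049906847254995431463155255029277207473968327248582424699924015062902013998549111281783574328649486254843391891191224028426863788181946368 2990041084174332984147711448946170678673403908490414719019396560019938887088818128899950434498746418686280384101423609182057712733143496777438311904305218576451500526674312281007846952932205505019904 := n164

end Vale.Agent.Snaky.Data.L113
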