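import Vale.Agent.Snaky.Fast

namespace Vale.Agent.Snaky.Data.L114

theorem n250 : Valid 8 2636082301490154130553049906847254995431463155255029277207473968327248582424699924015062902013998549111281783574328649486254843391891191224028426863788181946368 2990041084191737313896331273236384914003124597544464219382722470816549748837406481975667623199649328580875231713370386727044510518806472351977327347375833511749129002834543719018057983129104943153152 :=
  Fast.check_sound (s := 12485087863790207054358648371541642651136909883164982854971192349071779378019292792192632292419032570217678908128794517667646236714788790461807193989434009240866199149614463038656365448596848862903214101511229086125665990139251548608273383984050179943657449551053943212903993981164000200889921690969068814647690723096171427964063004965384077973397808042196547057861899051399151066219215553696689388818639835148534732568380520970640024565030012694201687749618110299715206316418533139691749694080361212733720290703280093227780324004515941044371708376137827607445459979593748461331806844221219536204698391317669071194321968791985264701937163765990532441683615609123370896720362679702338329491294569286515611446798143026833930008119443375304265804972772059191044147611781758752367566143589221799545543873212969303973691234838092617751054599905480171420748949201324855764723950252888081158999733317348784729083723421208772284032740373523724127302182839743827683572580238693400366724893156306570205858275788129050472659250703423865667522728117310346748982446384046784766156548070399005997816555339242516014354596891290318584396275386125343264502324301921385055911522983076048954988476741765038752265833282059902301148523734029909440385832719684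091281652855834357238997777701855475820457193597869541544060825116879023652585673390457326046889752909940560972434800668368354477760492655316484655467801653446269689746477151328223925340677520008023031629452339703777663944144947369676562283977858147728260202825787603282240554936956035711575657978418794919512316253110672660080111749416725954348206967352961625209908779109127246733739207297525302314755591795934199416178876693689660099432264492523895176212159962101826630022411858598940451690443131384146743809834959892222386570576080215749397098582128395000507578714647345560015261656699575767755039654520242452362058209431757729100616121318415387911897723449516938997434557032709188856176632650293368185738746845111912741343957611233036103247184951012611521887126091522603859432620029080261570711967242050875215672431638299593187536692464311278910287743105864184191777699089451593439080783359030097662760038461247035237647542103880923876750475436666132199755622772928078062425734034364688380768332502375249495176453287611082127625749862343516449613393233373325899552479326450524354530335) (by decide +kernel)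

theorem root : Valid 8 2636082301490154130553049906847254995431463155255029277207473968327248582424699924015062902013998549111281783574328649486254843391891191224028426863788181946368 2990041084191737313896331273236384914003124597544464219382722470816549748837406481975667623199649328580875231713370386727044510518806472351977327347375833511749129002834543719018057983129104943153152 := n250

end Vale.Agent.Snaky.Data.L114
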