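import Vale.Agent.Snaky.Fast

namespace Vale.Agent.Snaky.Data.L115

theorem n2310 : Valid 8 2636082301490154130553049906847254995431463155255029277207473968327248582424699924015062902013998549111281783574328649486254843391891191224028426863788181946368 10273702941681790257913223510795040763782487296896239233326314110918385602141916215033377209559611931198292888312482602137449627592198373307119509220443618426158875717996830590334157791862211066856385066041344 :=
  Fast.check_sound (s := 1832107516778323449432139753341919430890055481969030507288392219960621914347306132407034342878119535497711822313419967423891876769717194298509902463169064511864009432846416783951700696923167061463353973412644022162530492356982499618075718607503336373255917371318824407250016654679724046352074539907933257820997132369668403302839687120046397813244025610600763569535243662259789130459796235086289021880464014830249828017683604020304993367231477111520730743615801413826561625334395548576346608616655199101255080942502729706134729254071387203294704966265531663255664776122311025884107575354017461728208337382000460922410822039168716757697071454494252574289831387005217763058052648778409376600273636071903044505232652450226925648954803049421123498049841467660622664290455874862128900439299755057959585415039858819044665243523252800409535763172660213850143258975024740439172293033104820040666147437406517867394349206592294414806657358836178933164588158240171741834986532928979393348429712319800299255776828808673466325896314428801167678076067794209256754533100712380708477085006236060828153545250196860142148568343319051240682291641944774714630625813465674071160981233148169299010230589060948292645578378649855133056991827757883203648697290355491342946555084147120231682780369852828483413179107944775989244651775643524542096451820499675757007668738008076363099448260723735000373578501172500485769409679383739567261212801825226811590308835540926815226634852193585124098818182258938758438297123537508064672927137118006830303359596965304772391522258591481775596060107435261025762778540252839005492140580629312368298837529219120029998623629004115989548225000538753653011491180794805139953551916221222865907076643507858389950230649299812445132146272966835575969121389772698395717706915196722773056490729462848485394368817717102783806722005159020267399651042645550433115160303654342194879095970994974577144177431175018670208037)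 (by decide +kernel)

theorem root : Valid 8 2636082301490154130553049906847254995431463155255029277207473968327248582424699924015062902013998549111281783574328649486254843391891191224028426863788181946368 10273702941681790257913223510795040763782487296896239233326314110918385602141916215033377209559611931198292888312482602137449627592198373307119509220443618426158875717996830590334157791862211066856385066041344 := n2310

end Vale.Agent.Snaky.Data.L115
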