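import Vale.Agent.Snaky.Fast

namespace Vale.Agent.Snaky.Data.L118

theorem n2487 : Valid 10 2636082301490154130553049906847254995431463155255029277207473968327248582424699924015062902013998549111281783574328649486254843391891191224028426863788181946368 2568425737737729404505432199863638507906066953078987889341293702643440759755841656099035175983445177967096007645549273847867859728159970791465468912629554929360398600700286825918768468517337288600534556606464 :=
  Fast.check_sound (s := 161698208578473285487028262701632253129526957774964015324159367171371824018461284701867615881863645348603915238773626385633454110518602376140387898693882283817419903057982148747717128111099031027454617598173432027653532892117741838671571798361525071309524647211529259940484979530560819565404021591766845547374638741463105502135946391829084828504818372426542741568435570425560512152451580490965425629121696155733897053784822684532781661165660706020743740688036454112234734683609023771541634624166168043203829324186776142410338742966165488427533540787265259316557889886097500375758084260428479462745329975905759139709069905737143291616447713714947876290206001436486246552336112933503233093311429585956753015002736334571239511888438138492071326310639218662984715752944242420036826603475668718584609742816001076039162985833602569572914445813816728645004449943713561182154949188473688795707772200012141876537360605208627624549199505628589642919967798166143383776374261516643988424746984547227859862357726341230571956402934023016734527379880187648787234160813349531614011763215015427626941237389631158781100776961002403046842137823795334505354488332846431601558448071526267315912056854526130641894312588885389919816497910478899838942420498875000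6985400684771002046519114691117404680518807028442906915370734420344305839388884469775523627295154573283981259731015948698058881135663219264349099444551565176075747005601616504383836797835286135854323642849303465251995449267955218319493611414025275636636414169908196799804920340910197643642587325543532559919406328438988472375446764887422050956616334268423097692389841050767639214541418322328632192173689767474523440318322323608703072105781253333730615296876440073713969056447993671046449416488451145025441543904845380922049250738608434928552155550955215742770772640588280467948071443079184583605067793024422389272680278920212688487207582392440991631981572664724768634283827919027693641863102836550253220861187876574495129534289427089417824591152518316904510399429499673708460797476780320243296751081749007405304590774283961168384964321433948664238662025585166277091549835943577111385226000938338968998018836399574417504088419831056609084330999216489553997023046408325313913277519184502945187507834646930377810381106801795812753510403391641015034300881958603008707827956010697960595546801443878942809864134203025519928592589298782619182599563035205935053696721356386078971091118461533060576794055387383682555577564931708010944457774630385978352783853553998627230411132398003103791823780268276662003514605526042540839961009086313600260185799141295327804597083611624949280022669036160756754708757995835108672671514720492411927727215757070446740382605644772441996784100870563739838818799561510426006816670406251326077178452403019328703529041175050579897339320660280219278686215882007012654298795558482695056875074568657801119769262417017667966132475309308364384160825159676496956781816925454161514375232350547520159401388652743593679818605599)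 (by decide +kernel)

theorem root : Valid 10 2636082301490154130553049906847254995431463155255029277207473968327248582424699924015062902013998549111281783574328649486254843391891191224028426863788181946368 2568425737737729404505432199863638507906066953078987889341293702643440759755841656099035175983445177967096007645549273847867859728159970791465468912629554929360398600700286825918768468517337288600534556606464 := n2487

end Vale.Agent.Snaky.Data.L118
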