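import Vale.Agent.Snaky.Fast

namespace Vale.Agent.Snaky.Data.L123

theorem n1376 : Valid 8 2636082301490154130553049906847254995431463155255029277207473968327248582424699924015062902013998549111281783574328649486254843391891191224028426863788181946368 2990041084139524324638315016654393988316187513523228131056475780567713850522369601158024110228422791952843757750314206921087031723358319249643805901785821250020440924878810737737525125206997146271744 :=
  Fast.check_sound (s := 1796709854454191872218196792538555265247699621550665963453541440956576510875341934102992218769014214712140252285833634673851918686673253348988079044047312016040187964722497922053875359904198526479486512449133444205165350765636376976745638376354211232415351008353285610721276999054824894125492708178966080457295879635793445010681495848914559103883535026714493776556792028749245885357255907592362895803429380396098509392744632858114496915125967933645698980016622293653485111215634367683550459375108520120815560861341653499115170386009798549350491636594068334532256409882168518821873203346976978229322462905862487668046305489961627565892641437283719657663580470647159682800513480084848695180760970913720988271205328388669493583919882716768214795574206537690934132063560103969335996289934808461648116149785423633612802416928687833694036170995734192051657641228133660946037190866800689819998566401495759092822753942817295282287477114523745592454914275593718328105819567549728806783296862498314202961766092783804115737593523352020711653636452131983321601803234133251569919899498172941963413064112525136817266364037937504380547157658935403281405474772092535345983906545564306971734160131482098017586061193349739370893922674774429141742547125263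975225890732880633286787049246544730688496560435370611411441261330226418839450781037687587325786656841221590589064507696782857776864532502806607432439288619267954142367932154107934926698725464342646034530816040127307205763768310389744711129138154626147764930279046392300164869792570709275943048018215073876891389791304652365962940619379867959135532074065083658130434123842211594339138456829198607892489722433038760664803760121903844767608138342916135717120340805382605602552956816321568842334673514870019151715936253837669523418972152545800343868001225925116222913582334121046747644938022799379610850940360863690107636834455280624309199718731359103892775212466512652733311770728649605876001948926121133277005808228929471320940794565642723159097804038066972521616949065325206050234374374886763168249439241356945039737433715258752301139380723207020312465520588690626927211465397800198900318755619707947325447776766456965044189859666058924508439201309192906245070423387712216427030508328993118415010823061566017050752468924631902224726676607110183508710490572325855117675797783001023937828831328410539076898722880828948251876223899923028684039664068871957603306974061913896318154808148271833736703342285170659081570984485936184357) (by decide +kernel)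

theorem root : Valid 8 2636082301490154130553049906847254995431463155255029277207473968327248582424699924015062902013998549111281783574328649486254843391891191224028426863788181946368 2990041084139524324638315016654393988316187513523228131056475780567713850522369601158024110228422791952843757750314206921087031723358319249643805901785821250020440924878810737737525125206997146271744 := n1376

end Vale.Agent.Snaky.Data.L123
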