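import Vale.Agent.Snaky.Fast

namespace Vale.Agent.Snaky.Data.L124

theorem n357 : Valid 8 2636082301490154130553049906847254995431463155255029277207473968327248582424699924015062902013998549111281783574328649486254843391891191224028426863788181946368 2568425737363974268987991659259535563248430946119802473440381065698193658178862970842503514775350172845488337955504477997414995298058094359128404196367669014697092990932089845026981393873341372092739999498240 :=
  Fast.check_sound (s := 1530483425556044555443276302588733076522257872682543369517440255768739861364823215241635290708734067632536387434385233890509745314593318826844018016268717298320705120284842808874304380188684722282967489339602507871881267380310876612560733336838802350356931072652415691656168107849407768230906844530346598915300281074721438638966478250856889571483754067146168223535058350717549064457652587785415762826606048254662971972804329473481804490512602190724065907038667028244495988203769605117288665883568512173059526455721489904163181432858387054745546880367972938740479962731344316081468098261653404124520477187606103365615242158576144242000162536007866434204617971866356269307819072456926932789571357973187929322786390684450846066771674217428708053885258285482099443666606739316208700169500250699100035343701351647069408292870499668134234076656701423153960746626408459949209421580344930689660443478199072774530959254144916939711116762159942729185733892868711726214347125182135202714203962530315086413655060215959727690543972005349052847338623941221961266476434022603118251248590463882077784510009222696467695071675885017551009412689818057143152645624812613246700035887370019590763544512122086947108644404554657709927325892929725240703318275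744173397201847768099944764928514077775117236662829973586505140797602098937088045173538144251813553820125628811181641369983556497214465951825360448938444270546409169957435738967891867648677324325713640297400071939181890452518790845373768124591036114104397195944733835969276402862996103561974161147473220911179624872774306581536382485277669836330424736101038971349367194252286647478702466508701728712967325687991441292340911691452553538377009371313659426973049074826653368303018830417312934808136718822178779742359356650892779054159460168186617534063963071491004873268323905376379000009232507179679122338817337150931657763249786404089549135468430174019620144337396929014063328345506517791973110820599241104654398657798653232715588655342366208639950114024860370588854005304853020147681326354001752047440336000431159143738889738747198027733413704136456519947180110400567423586817738473413900046569152270427444707833832977573130617877742809541559035525845383146159199872299883740142716237544027513259094642023576071017794428923261102295285053000219364495687699480431511328745724393445596555704861794729479799055983832683718501253559235446616066483977179763279767867181567688355475376968427518532094448663973126023591771587773971833691071056496805959705931267336611490781711601672862396387286597178272167907768726264727516434559197820995867300266042669937701) (by decide +kernel)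

theorem root : Valid 8 2636082301490154130553049906847254995431463155255029277207473968327248582424699924015062902013998549111281783574328649486254843391891191224028426863788181946368 2568425737363974268987991659259535563248430946119802473440381065698193658178862970842503514775350172845488337955504477997414995298058094359128404196367669014697092990932089845026981393873341372092739999498240 := n357

end Vale.Agent.Snaky.Data.L124
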