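import Vale.Agent.Snaky.Fast

namespace Vale.Agent.Snaky.Data.L126

theorem n745 : Valid 8 2636082301490154130553049906847254995431463155255029277207473968327248582424699924015062902013998549111281783574328649486254843391891191224028426863788181946368 3588049300633266058355196589633329851406032216047551184514638043971596635070248496046500907658370885981843948286813483493655387200829178202676163325140149163960416494962011063699916597003190446063616 :=
  Fast.check_sound (s := 493909943312942125817423459415414950461053703730646187652757873033751125899233144143194241814478444968923006256186769922094177073018798256656487556661951486137398363910758979229620550197833436481253873210087135119054901320722798637180843213885327274975190973937887157186467750548077336534530152559056828292731528016518745442427039447556956564375761598384235247311579267749163142696943254737500529524859819368712273518595413342260049176970223722091752760571468423712295534123184032975766805530654731653086394980008201454741349118686004330885971853567685236047654557184482486288829439306350845646410788984314664417844208420360983819572295088517419562567762820261512390605773938370300871524943292896649672598302997535078361599865005099998512842886967438593047661574905597723737191013314214234058378745628326590859239185735016550621703859307472185384371264748331255936653491790617329536358929588011011835684145664238127942018812236142992450520646256184143878347462362559401653817865395648492775995559353879352032630861860859538939931473958757988751760098501041632948927677978094550001510994232998670231572563687231074156325799621106767420979030414550909972971783843207829524079674362013366690127271325729684354654597549316605861209443511810085331537248877514909515495774459794974507972375134431427095037754375019830855755122527898928471112693924970906834800201597235307050042131129341060995200214172440681982704118090169081608578357926393289013275889429264202156033517617034956397484406784122496521595255434030079022864551711890501510571162905970683585771181233759912775517887606301650699473322206789959295749424370186481298298403256185862722690905112574509328297748661735278460492986162062061750572814784677924633498734862558880835054629)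 (by decide +kernel)

theorem root : Valid 8 2636082301490154130553049906847254995431463155255029277207473968327248582424699924015062902013998549111281783574328649486254843391891191224028426863788181946368 3588049300633266058355196589633329851406032216047551184514638043971596635070248496046500907658370885981843948286813483493655387200829178202676163325140149163960416494962011063699916597003190446063616 := n745

end Vale.Agent.Snaky.Data.L126
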