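import Vale.Agent.Snaky.Fast

namespace Vale.Agent.Snaky.Data.L17

theorem n411 : Valid 8 2636082301490154130553049906847254995431463155255029277207473968327248582424699924015062902013998549111281783574328649486254843391891191224028426863788181946368 160526608585248392229453392769370624893902662913898083633004751108829204823495629700559375759488985744165377429979940807268671590463641578676587698279015718905845188326823737567422616538249861731435277189120 :=
  Fast.check_sound (s := 1941850405759045634632298865944890842252331503689227529403698630787672576424491777698664663337820540029935522980877127032664301228682897696193136231548110292893367699723118424882535524140920983693765562151867574386751752916841382207541849352071030627660544086698773592098153986660875160382595751586465358598758902935883428206633189434285094995404403002332320590400976838497431955970266691761854479080531442571945287562572494534428377917472988464457475151300562807581911067558442327513866677259440232760423466158132890047997673536070154283023016655322660473326882759028300098361042449059526369480950637714839140891914851973861297449661910383304994639085819177836916592113725669369691242377702869782322095625464111485530175022076694537126588156497791135854058263681982084717712901314605262423577243653543576499632799624216762371092372162958813554579044624942134822254012223806320347850933864739655854172105560164164439376144932794585097087097219760484024963625138635744198705551127956365785120630093765783874973985291966975583728822863353911432204513816101752780717940716852102729352401180249611310028828385079136201021089573291936214620117327081515508714310186814716791897159627274437405582877235865452153646527107577657948252255554849421530896859105236340275570592407587073632440911983263904154659846398452807536733790896355148033566726488638587300970762006086668056545745372348388545053249657687910427773285996319374127818574523476643090832232853062740654308917243916778423585982353116899554058946637675566410517751588584869197268412827048183341455315554334720391596290141107093070766358489216031)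 (by decide +kernel)

theorem root : Valid 8 2636082301490154130553049906847254995431463155255029277207473968327248582424699924015062902013998549111281783574328649486254843391891191224028426863788181946368 160526608585248392229453392769370624893902662913898083633004751108829204823495629700559375759488985744165377429979940807268671590463641578676587698279015718905845188326823737567422616538249861731435277189120 := n411

end Vale.Agent.Snaky.Data.L17
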