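import Vale.Agent.Snaky.Fast

namespace Vale.Agent.Snaky.Data.L18

theorem n331 : Valid 8 2636082301490154130553049906847254995431463155255029277207473968327248582424699924015062902013998549111281783574328649486254843391891191224028426863788181946368 5136851475325956754748194328294915113830983583201623674397462076759791879093117048610201492289374089054122783964116806138653682326814912118656240333758414978928719757612358409841614510055472377497384944402432 :=
  Fast.check_sound (s := 709474275825396209582055014191401580778633328405370459428842287912759570035753183402684715403627845609752793259162316692770158777007033242514445775460728732548594538039113764065439026325305360735550794194867563604446603665131086503714838385252725277671607076282309985628275046283884627219218198252378849157436046239053386584700267499748821808152621217281508065816957638203560923255171661735277315917178376646166263242126486312124943181092323027842371753350878951390304377855166522956078474967109834330653792254189153466348081918363299393706760014145505218369878999665182061421734494555972676185721716685264320802491297168304506722671066875969759465849795159180808095490313228269899553023923536185106922741346924980373969734811995402416709150843181316719406342642429554609049928591409825137801113057768429553872430084705655092927477260962784797938339750166690404391135832334518407695426935876620602632954201376972770195695554527131159094939579646541823147113294164326155278336919225808973632973830314496737208448502201222615248104776071239165106438653581796683249158814014637049923640037347679361546289036938689072442012410594773748415409414931156834999784555137965007177099471012710953501590391762269866677340560580334824202281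5254093111204734885507295415836786385308378652350625264338849727431053002135094454756208513339028658450457970123101808910566872218448620007813331776361563398201618264053420091778086605852301859722029771031469364770569911702763054554082306047150194612859203621063079709949095044629351985359709890065761373017985906200668698120407927752121195391843458756271384662844833122618539651326748818702430594437130225193275958147673162184932155640870024987269048903381208459351231675548515664163298227935825860145334980445059933257510717338836977341143872632063123468762688319760014435650390870641396262848926606055021505536249420458669722004482293425755635945213560146939077912433347812441026214465536632380673053192334259109736358445842360794458234669474485654935693238154808820095509689638565101454576963966559226869542536551995623668242050356898351268497207283540550704452170937017781371665843231661567665800014594657468624821738756604985745553101302569421652774159600558137514272562460401458437458593094221078251020023981211727703077) (by decide +kernel)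

theorem root : Valid 8 2636082301490154130553049906847254995431463155255029277207473968327248582424699924015062902013998549111281783574328649486254843391891191224028426863788181946368 5136851475325956754748194328294915113830983583201623674397462076759791879093117048610201492289374089054122783964116806138653682326814912118656240333758414978928719757612358409841614510055472377497384944402432 := n331

end Vale.Agent.Snaky.Data.L18
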