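import Vale.Agent.Snaky.Fast

namespace Vale.Agent.Snaky.Data.L21

theorem n36 : Valid 8 2855755826614333641432470732417859578384085084859615050308096799021185964293424917682984810515165094870555265538856036943442747007882123826030795769103863775232 186877567758720270322312778933897880461457085199597493661461013708562202432923376466268975535618762946339940376431743928423269504980821391426978533740604996514222998826458989391532798279271357349888 :=
  Fast.check_sound (s := 700923185015817502665605895687745745860293720185783081367760320337194249936111450196304737961512633017161795321480327703931416197759718038301190903494643651568497255811256122670527673228015650940809268896071629099025445746366223391) (by decide +kernel)

theorem root : Valid 8 2855755826614333641432470732417859578384085084859615050308096799021185964293424917682984810515165094870555265538856036943442747007882123826030795769103863775232 186877567758720270322312778933897880461457085199597493661461013708562202432923376466268975535618762946339940376431743928423269504980821391426978533740604996514222998826458989391532798279271357349888 := n36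

end Vale.Agent.Snaky.Data.L21
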