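import Vale.Agent.Snaky.Fast

namespace Vale.Agent.Snaky.Data.L212

theorem n378 : Valid 9 2855755826614333641432470732417859578384085084859615050308096799021185964293424917682984810515165094870555265538856036943442747007882123826030795769103863775232 1681898109828482432609052196760568173388022007229372517076622943094864468071018425061670341254892928009735671057079208228817218113354517233692446791250166974758313539836991519604854677848608613597184 :=
  Fast.check_sound (s := 100747919032398491323098739718041897434037952158205587240191620363819252207101946107588747192855852656548518828593880347792381439511193129487186851696557432717760312394108043115790140118739896578902866576990258166741558303354441861730657194679386002557688956076742465129029601586606331676899176332081638892223655866735796399696200265686540512532232708937421294044399448241522633184957249133872209719595253050281724933492793523543688013602658648876450122605562613689153368005999114366838740275553022494694933314890694962461137435381629781889348222122915497262669492565681751333696229545070470718707238870698986230096021143377248570748856546871249135081795945688410746900535603389441613513526441243878605826261917290479532051585066738422582433276293827823792902220379527534085363839715254460229090530618460116357786925234325890124417028011875731121953904987000863748773343150551359652455091064221125450505727028835695191474998773466347848581652673482974349130187313469543706295814416517777074601552824831389105944221783760587904035877561055910107380206695897474491251718954890699431766878210885429936543372815023317785386438080641926112363727758243016408116836485618191853016946450045787271340824288459563925893263220884777264329005428327792696206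128049591694428081562196877211730829934159891270704554867978807599267750676904142334411524020982540392851524119378671318759518219602818730004581391902048837684302575110589181640818044126886006852671259321995766847201148059139960671308199702782390453207158321029210837308443514583999970110618595953807346762247497060343071289684847636556418575620718112318263939571492129933126493010041601960756355314394473777317199268425730330853042031621225904177350480798844114609225759309791023631569033781584621320762420497858293541878876383449402638374109732633764090192246030163597347994723883751202740154625556752437778380149150770901334246102607270242828299959802163779166805266678253212200247356841420894827090206577286005084522333020486143788356074556180481099262908884945350756102598449479204265746883029684593342040937777872618321047723064560698253703516563682673966210467667078323866046113075822428814865986960623578100535628057496003610110930783186173484224042524346161933639460858607965264819548221052938603605283574743762464291020637299502347558716153026471396938094130723267905713654077384818993239822130468234877486829603483351753148503997845367962466013569179662776647557530421379768098159100270825095948963083407750099344334807052024774328277771287062803547836255134990953011757863945969477926690081934007178410738705625419448126761182193359610112939853802262172281887) (by decide +kernel)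

theorem root : Valid 9 2855755826614333641432470732417859578384085084859615050308096799021185964293424917682984810515165094870555265538856036943442747007882123826030795769103863775232 1681898109828482432609052196760568173388022007229372517076622943094864468071018425061670341254892928009735671057079208228817218113354517233692446791250166974758313539836991519604854677848608613597184 := n378

end Vale.Agent.Snaky.Data.L212
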