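import Vale.Agent.Snaky.Fast

namespace Vale.Agent.Snaky.Data.L215

theorem n64 : Valid 8 2855755826614333641432470732417859578384085084859615050308096799021185964293424917682984810515165094870555265538856036943442747007882123826030795769103863775232 186877567758720270322312778932246771900597660857991813532284600331619638015182004530421598092149486010803952907713380706440716968540562956981039547032583337277376487558741455326904280243924061126656 :=
  Fast.check_sound (s := 15640434012902011303093733573490659377377204074641937733676087298777659901539527262209062573876228105887539849975979808839509631155605986629773320823637894212608001091221331237780784638454751176513046061082035535272022462454775002527686692586042369656259505510844895749675985862081624795963496521882643523664362056717055077048413065293912480247114206671241409794399133718026337091069700031784677690325348440990817436771314257123875871) (by decide +kernel)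

theorem root : Valid 8 2855755826614333641432470732417859578384085084859615050308096799021185964293424917682984810515165094870555265538856036943442747007882123826030795769103863775232 186877567758720270322312778932246771900597660857991813532284600331619638015182004530421598092149486010803952907713380706440716968540562956981039547032583337277376487558741455326904280243924061126656 := n64

end Vale.Agent.Snaky.Data.L215
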