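import Vale.Agent.Snaky.Fast

namespace Vale.Agent.Snaky.Data.L217

theorem n56 : Valid 8 2855755826614333641432470732417859578384085084859615050308096799021185964293424917682984810515165094870555265538856036943442747007882123826030795769103863775232 642106433556107782733470964588940918170394601019777756058887440652699383996834187187803424739859463663381257332955645583334583839057122708188451783822662448206564774095302568053831791042980503496936807989248 :=
  Fast.check_sound (s := 6659633990723428678071002707741154214908360011396233635398588573587806531050883454921451737816187572933269356340126279813797054642593276117343464844949445799360909056622428287566603077414807084866011846206083388406236677986937497246262757299300386785239019991953761162870238347627221685583920154625970265042854244556927409183) (by decide +kernel)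

theorem root : Valid 8 2855755826614333641432470732417859578384085084859615050308096799021185964293424917682984810515165094870555265538856036943442747007882123826030795769103863775232 642106433556107782733470964588940918170394601019777756058887440652699383996834187187803424739859463663381257332955645583334583839057122708188451783822662448206564774095302568053831791042980503496936807989248 := n56

end Vale.Agent.Snaky.Data.L217
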