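import Vale.Agent.Snaky.Fast

namespace Vale.Agent.Snaky.Data.L22

theorem n33 : Valid 8 2855755826614333641432470732417859578384085084859615050308096799021185964293424917682984810515165094870555265538856036943442747007882123826030795769103863775232 52212989290434347170616062274651162900335475483335755396699114708005822231622281487722557376298536222869542905216426878711150024075169275447440101493263205483249985274137623546909394206720 :=
  Fast.check_sound (s := 197725706048096309395820370967363850331244983583209440560344027537158939515026177094566206522408831493383979007221434678736656112979920584626450435867196378797248660693259709622857020792672461219060492880306851262947108742558785967498193268642847) (by decide +kernel)

theorem root : Valid 8 2855755826614333641432470732417859578384085084859615050308096799021185964293424917682984810515165094870555265538856036943442747007882123826030795769103863775232 52212989290434347170616062274651162900335475483335755396699114708005822231622281487722557376298536222869542905216426878711150024075169275447440101493263205483249985274137623546909394206720 := n33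

end Vale.Agent.Snaky.Data.L22
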