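import Vale.Agent.Snaky.Fast

namespace Vale.Agent.Snaky.Data.L23

theorem n42 : Valid 8 2855755826614333641432470732417859578384085084859615050308096799021185964293424917682984810515165094870555265538856036943442747007882123826030795769103863775232 174043297530773117199874919392381553097203323616403196618171575588749375075319481583657760838630405281561333032626967009417399537052408140254393868869989966306058534072068514914601204187136 :=
  Fast.check_sound (s := 23704890662683427465072935105708373926306050782346552544233353325335085002238735865191334553189498519215972437150897106385704224485924101704887825165041989760081611590753732359977231585013224559428935300104056308711132933157376425009938022851330083396984872478857311018371707273874503926950469778785569278532639) (by decide +kernel)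

theorem root : Valid 8 2855755826614333641432470732417859578384085084859615050308096799021185964293424917682984810515165094870555265538856036943442747007882123826030795769103863775232 174043297530773117199874919392381553097203323616403196618171575588749375075319481583657760838630405281561333032626967009417399537052408140254393868869989966306058534072068514914601204187136 := n42

end Vale.Agent.Snaky.Data.L23
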