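import Vale.Agent.Snaky.Fast

namespace Vale.Agent.Snaky.Data.L24

theorem n52 : Valid 10 2855755826614333641432470732417859578384085084859615050308096799021185964293424917682984810515165094870555265538856036943442747007882123826030795769103863775232 539534222332834653241650766511864150771992354444426291854736603745514042826779773673107568635683266137412892423652580882791112742061029223741217138778567646306204413310579743581566387879936 :=
  Fast.check_sound (s := 5861138585403524719335921621697352769155944134732067892321944426015073459998758634655060323590357573653279162850940041497540314179260290914905131383232547500934519708470747399803231983961911057026966270873929715188347914812620421043079666376980365091950373458864400734254151924919092007642284881093257179818186070486627130399) (by decide +kernel)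

theorem root : Valid 10 2855755826614333641432470732417859578384085084859615050308096799021185964293424917682984810515165094870555265538856036943442747007882123826030795769103863775232 539534222332834653241650766511864150771992354444426291854736603745514042826779773673107568635683266137412892423652580882791112742061029223741217138778567646306204413310579743581566387879936 := n52

end Vale.Agent.Snaky.Data.L24
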