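import Vale.Agent.Snaky.Fast

namespace Vale.Agent.Snaky.Data.L25

theorem n35 : Valid 8 2855755826614333641432470732417859578384085084859615050308096799021185964293424917682984810515165094870555265538856036943442747007882123826030795769103863775232 37375513600476177397878867758310734327355773474076681856224170493554623923430736374273563214677620433796964792194215739102544014837025195578702894701786849016032156538055790809064401405317514002432 :=
  Fast.check_sound (s := 51916549458187827839638235028758804385953983730319483080144984847810045058777632472055220640819447440502876392118219580387892706932101103620229349814957901851057556646382498017112893647411068898185345464702399557577514888300120261285786242092676953698857915423) (by decide +kernel)

theorem root : Valid 8 2855755826614333641432470732417859578384085084859615050308096799021185964293424917682984810515165094870555265538856036943442747007882123826030795769103863775232 37375513600476177397878867758310734327355773474076681856224170493554623923430736374273563214677620433796964792194215739102544014837025195578702894701786849016032156538055790809064401405317514002432 := n35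

end Vale.Agent.Snaky.Data.L25
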