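import Vale.Agent.Snaky.Fast

namespace Vale.Agent.Snaky.Data.L26

theorem n38 : Valid 8 2855755826614333641432470732417859578384085084859615050308096799021185964293424917682984810515165094870555265538856036943442747007882123826030795769103863775232 34808659509396432499108751085513030819440055552697864155126755272201549277532125893855770412479343882753360458304728947572019220009492704229767821339276042126291017234218929022948433985536 :=
  Fast.check_sound (s := 245016149132528501185239492207037738650951351453839638180002831283769059955687353685816948321617340219267578026661988945624545162289239548484569001680822149249874220758524377125985008842057099260690966953664259434871302887174162027075741522720358485881034623702909790385824136698911) (by decide +kernel)

theorem root : Valid 8 2855755826614333641432470732417859578384085084859615050308096799021185964293424917682984810515165094870555265538856036943442747007882123826030795769103863775232 34808659509396432499108751085513030819440055552697864155126755272201549277532125893855770412479343882753360458304728947572019220009492704229767821339276042126291017234218929022948433985536 := n38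

end Vale.Agent.Snaky.Data.L26
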