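import Vale.Agent.Snaky.Fast

namespace Vale.Agent.Snaky.Data.L29

theorem n55 : Valid 9 2855755826614333641432470732417859578384085084859615050308096799021185964293424917682984810515165094870555265538856036943442747007882123826030795769103863775232 1495020542069762162327262030830205604109896118781703957633843316626201564336355458106656001261502386676689310121726413558290834017572771472314443368328256092674026529446344144056683334816133615190016 :=
  Fast.check_sound (s := 173270260785779799645561499248646901024514283741190451425341848255601091527512690661931662013849354002797680036396195592415612746820610461873323145239123050743153448697261052702167395295629996788373485398512772455821442551652178357712844517176364578157549951553170418620597711666008318022151219958608392654164970521042720339579045601714884572486015729006676483929471415430263186751722932793141205804262431) (by decide +kernel)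

theorem root : Valid 9 2855755826614333641432470732417859578384085084859615050308096799021185964293424917682984810515165094870555265538856036943442747007882123826030795769103863775232 1495020542069762162327262030830205604109896118781703957633843316626201564336355458106656001261502386676689310121726413558290834017572771472314443368328256092674026529446344144056683334816133615190016 := n55

end Vale.Agent.Snaky.Data.L29
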