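import Vale.Agent.Snaky.Fast

namespace Vale.Agent.Snaky.Data.L20

theorem n31 : Valid 8 2855755826614333641432470732417859578384085084859615050308096799021185964293424917682984810515165094870555265538856036943442747007882123826030795769103863775232 34808659541814522880755635922339870919999368201656373337305274526843885574290553753161380649271376617190711416209649798479710219793711777778053109939905361629269339071185241482328862097408 :=
  Fast.check_sound (s := 700923185015817502665606219249190947159405791034355388617684456739933069580416811300138258951385255433866883283176912946503772334359038872971443796482370206201710908938088231680235824408038352427055540260847641044066911571996054559) (by decide +kernel)

theorem root : Valid 8 2855755826614333641432470732417859578384085084859615050308096799021185964293424917682984810515165094870555265538856036943442747007882123826030795769103863775232 34808659541814522880755635922339870919999368201656373337305274526843885574290553753161380649271376617190711416209649798479710219793711777778053109939905361629269339071185241482328862097408 := n31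

end Vale.Agent.Snaky.Data.L20
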