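import Vale.Agent.Snaky.Fast

namespace Vale.Agent.Snaky.Data.L216

theorem n102 : Valid 8 2855755826614333641432470732417859578384085084859615050308096799021185964293424917682984810515165094870555265538856036943442747007882123826030795769103863775232 34808659509396432476582912862441833445179433975598121852836690295096829858014670222121987833396087176683542016167304147788948678462276343331066214552574946073153561662951866361470240423936 :=
  Fast.check_sound (s := 22558028664506345090377947755048671463121673555161735134084546761481912964263401855655698784408347254720549609588774491931748063996174275592006894693838569701978840424408481797455052065911869543545464822994290908684019479106861312304170670580034681510728673028259920351296459563025974575510040938142722555905059474994876220019875147863509355102443255595709385759764657781441164783405857213374702454718092674457974436394499430418151288597872188199893399538582189752553354776150886661315252847226191630684796950170824515214073571347064050838104767118980836239006790408157413816144506497417268333379376752957804299686191365387639922074343638876809616254091682260444872523122963811266323319278746720019487) (by decide +kernel)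

theorem root : Valid 8 2855755826614333641432470732417859578384085084859615050308096799021185964293424917682984810515165094870555265538856036943442747007882123826030795769103863775232 34808659509396432476582912862441833445179433975598121852836690295096829858014670222121987833396087176683542016167304147788948678462276343331066214552574946073153561662951866361470240423936 := n102

end Vale.Agent.Snaky.Data.L216
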