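import Vale.Agent.Snaky.Fast

namespace Vale.Agent.Snaky.Data.L31

theorem n231 : Valid 8 2855755826665480369680847949136815667397016321613000082277519686356862391919927008251807850435216190063147517994338641382935873117401143459560255035562122018816 74751027279271838617945939855995081979645924788899199010221114336754255621342843036408427282805795021469721397120891940347498481957031810586637166205640280919718132442465226691316495071334321094656 :=
  Fast.check_sound (s := 9861184601243366609283805979455919336523475341898885244778615655511231729960728637585245440716280291017733697831685066608203462204686294827802809409405854678236140646192040574660393354521038394550470341211026914625369394931529534228432827171007097740467494004139889363465514543109139326573242694328655899968031060177289066422990722337434663060745324358761136937653057072135112069622100881987746649451797586283972239679328088889894624990625599726723319067388557700544049426946267986070392096013808597095384134288933590343874874532350491471320819151968065676180352550508265223727809265827726562441558205250584827587454048736653140861119455372434426217357686587467053357228893083536554688288052900944431814663127685466412665787386101784585613245720845823308964576958160745941387570031791530851714147807710662722100112797434990631914908788723405073875143365152246497121759573391488814974203625122891702008003077840129554297715585299260909790013776320138327096742752826741475245325872384589836863818615211568760165390775738083589138266955816050738392149665100716015070278499021718015564931438228087847831091760470157752402190027935451441705195114283252186031794625094620736341767909157608878578149546136364146625016822452558344380222523839600562660782921994776860142282899412882127186688004579543126544585480481122917956470922423147385213013645354338714062129442634266166050873939505759178346756713329532947156240036839806064390106825392997454188873789759290577572620778228184278315928906085551662015358834428672898921097800922211808742357702463582843517187793291361521173380209428283234550486420996247125047117351399134418909314007294358899737090666803275630956078081812309187734460213429598313342515656753709136603610312553189136827838709067117085430216786712709823048766319690428422602727676954894158076579250453405)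 (by decide +kernel)

theorem root : Valid 8 2855755826665480369680847949136815667397016321613000082277519686356862391919927008251807850435216190063147517994338641382935873117401143459560255035562122018816 74751027279271838617945939855995081979645924788899199010221114336754255621342843036408427282805795021469721397120891940347498481957031810586637166205640280919718132442465226691316495071334321094656 := n231

end Vale.Agent.Snaky.Data.L31
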