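import Vale.Agent.Snaky.Fast

namespace Vale.Agent.Snaky.Data.L312

theorem n211 : Valid 10 2855755826665480369680847949136815667397016321613000082277519686356862391919927008251807850435216190063147517994338641382935873117401143459560255035562122018816 186877567763071352728822508919595668312029915832551005563451256630570714084713064437215590500029756192549498744126573136067623862915148069367843129884795723828690066895520290404340234453885084762112 :=
  Fast.check_sound (s := 36686903362379579717360668221187990795967084173925166374264694853979262848740849409488384506928314356860623789547462777987262524751239032925810354220569674983012424615225224003461575083630941055549490221176020010574339389392033240490872919636196077647557940525423807486923345569850667400038278005670266923135862273717725208045073664375436859441700651072213135175764713019373011902786127079107275671708575120269375141047381060221906532714818524113469026068514391727487430810129605660048181690292469394884370894373161574483707597772056007804581786747856554814381575164139869129520133606771334098880558076071464655955829192562919888770414661119808773380996918382665188883081699082367181978382108641513962814450095901682452941133618746763549514758876462752033352472246937051369351389789117088227312931643672846426966900088326286235773335767723251891116631836046354442848259553794778095839558527876761546572993895854888166628809214132428477252240561942569436969895848789087655397273689729693802463239865516672527978188788598334933372147394665102005799712369508611122470146474269685840235330268893648962965098136492525173104229315256793105406068253825359854908765976830135140733532742962228075841042210156129158775456855461942888679253459297105129950874005204051087838008850782713624448486933582766989176280983795581338097725162890072040047507247655899772371736887871467027498137701276150454648176551940404512053876178692921148569519276004011341220919678421578965573654778997355457800749027836856568940616110392208962316898164443948868291369633177918191575492707730583710192000834041481690135300659361708923253793729219067279694214263760830348381)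 (by decide +kernel)

theorem root : Valid 10 2855755826665480369680847949136815667397016321613000082277519686356862391919927008251807850435216190063147517994338641382935873117401143459560255035562122018816 186877567763071352728822508919595668312029915832551005563451256630570714084713064437215590500029756192549498744126573136067623862915148069367843129884795723828690066895520290404340234453885084762112 := n211

end Vale.Agent.Snaky.Data.L312
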