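import Vale.Agent.Snaky.Fast

namespace Vale.Agent.Snaky.Data.L313

theorem n271 : Valid 8 2855755826665480369680847949136815667397016321613000082277519686356862391919927008251807850435216190063147517994338641382935873117401143459560255035562122018816 74751027131335035722259343010298700496621756520117562948784245846380603329154126922870013452018635491624359728973676358512421158072775763407516145939850568029900349856225570621677551280428098256896 :=
  Fast.check_sound (s := 24949945083288411802744855455440441787497796376054630638309870312185017665046379014767174193323702157958066149777704714106037119761389490976959059120207335857849157897465182115242557101720583271177893841905067481879705325462757184237053982211280855082996540961053971016025671234926315353729458151625661187387151369388173303374585488688532137275104187464055938673722562308228672724922280245504013509762380942030463978156911781855478015938145782011785084964620014110138685525571771682654796779787248230462239041239335523680897978253943229322976590283055673743079333085046100230474225038186905500891183712123876691430194308715788137009299508317227998570352724317176462933840712051298999916860807908849609088914096088286652681926240700609312259586688475362018491156893917515796173951306324381976824796856948734467605921727322781090579429271394810916563722315159433084922812138348681525066933212276755915089427264317764443228633865320231444470777289638048069379008336757720228900563924998414874063962311109439623028878507734444254786731746608332513580954020082593635324934079215005212633082352242252836823785836605041094959104825310697829837200230155836363028918834615966462311642109643833106826119290695993158661578872358309353142265644597282828627864175189303633820032105502567336311240520083435176513869032624337522585968075977328781714969828836094659032877868334265792060795115045125477402065862048266382095299468324998721690349170597567687194436174085636525530381400612411197981066047495451521093996608942241184109646778277767319484504436077399030371803803289751478177051358744798960815735548910524147272319465081569499837398763651118667452592172299589882388649816588778581096459349397617197571904015457293041918180128900828598252995219065220536229982824730257240634676396903355180569068490648784089412011105406723975828388095716614796705222556849560320839002448728171480146745403029909623908327948376560347588858575076253)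 (by decide +kernel)

theorem root : Valid 8 2855755826665480369680847949136815667397016321613000082277519686356862391919927008251807850435216190063147517994338641382935873117401143459560255035562122018816 74751027131335035722259343010298700496621756520117562948784245846380603329154126922870013452018635491624359728973676358512421158072775763407516145939850568029900349856225570621677551280428098256896 := n271

end Vale.Agent.Snaky.Data.L313
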