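import Vale.Agent.Snaky.Fast

namespace Vale.Agent.Snaky.Data.L315

theorem n250 : Valid 8 2855755826665480369680847949136815667397016321613000082277519686356862391919927008251807850435216190063147517994338641382935873117401143459560255035562122018816 112126540679598223827677732949125700206302730442401053759499104473046152038761328276337274819537398319390180366590726223080231325658584481620474751329621628594397820350834948147500611371340474089472 :=
  Fast.check_sound (s := 597799026220037985302784966108943439213831039313182487299597274615723859607519840388535523234276907258331995257380399006083740934243061836946535018366376419462666348146531893666127697359430066138500596757633052963607758628313160196826945623127816013984724993173735442749784909351497394516179456876284536854725902156017532966023804155803829410529107028676860959949367257661658638113818323055610092470154003090022312652443287713849901329293265560858994210977778143928951249834061305549945028091822213152540888600066843712706767415491360076242528451101734864515871787394369155436971930958911072955753011442434699260469949335288315069992927054607428475354419148681445584844021212658379651662387940770300818398682666544296323291690023981578504066915975209565608882204967398545982962679230795601178757782645492602346558432063352708204181055137946630519194019765791378260507909393884470586196674953576582470406226004298526229486271009215232191613106864662567231081681418802778814476481685671663513263877638584248426383745911709580649805411824926048423184052652703669058174100516494359127348955514232793758302620463369556376443609957505161624436145680050327661642133167295510990699070975485380540513159848075422702387578787177980251506895613740707599732754080733291159232765595407834904704763649902822976584829821995670646473131087989295279655071226203422981870388208786129609562545164752417940251255315819051806036855034002470311023242351065787589887508681793440441872382497417575438192883442018625757960052398729503313381010672084092798274550577752542897075822091932845296750579830283716945935444011912803690738680411888936689747212578611164437602575335699327082088094667001580089701023130896493320566275236680286560388414012914745154569277353242315685070030148251782340493600131222469166598805844984002153992406536111212363972136067625853507805424993615535573536859396636870587566373148907740665281460561275867753983658869524512479305778990889432228673510086766613250973)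 (by decide +kernel)

theorem root : Valid 8 2855755826665480369680847949136815667397016321613000082277519686356862391919927008251807850435216190063147517994338641382935873117401143459560255035562122018816 112126540679598223827677732949125700206302730442401053759499104473046152038761328276337274819537398319390180366590726223080231325658584481620474751329621628594397820350834948147500611371340474089472 := n250

end Vale.Agent.Snaky.Data.L315
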