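import Vale.Agent.Snaky.Fast

namespace Vale.Agent.Snaky.Data.L316

theorem n251 : Valid 8 2855755826665480369680847949136815667397016321613000082277519686356862391919927008251807850435216190063147517994338641382935873117401143459560255035562122018816 74751027140037200596569255147680988823134319808072143493670254510519546872761244944899259944796954063657797923755753711682346829571458623407143682281270829219466877382349755260945938541568046661632 :=
  Fast.check_sound (s := 66685332737351554126448606863449115532675760416147851749495914967569573212869028611210074219655809028439822867366983160811251783642689601979350760398478606420583871100037740628440364162382985944494659216870068320906088161740432851400570714984654419964310997096349707014411311061390725828221937664705224905002410888301333273889901155160301619481573677325817402339087620558582464425076029163434724392818212602691253432988842798854751165744530385589803965797244744513427498854045732618612591932945451659471756317996739466433861582020010140525282166570487693946731058410998369753432486536746534382286692646022602843259445247113510178086483050814941822968907259647672989011450391760180218154959055573423624081528250266403532237618782061023515176128648805515417941209894749436497169826925983222310572555187777160322842309224352217611088876251714925420986793066756896569756398086387648256536354068636044091404828742579095813446313618214411865887505453459255999083542505204864692208560603354718386450899496402786924482481077114140371845534580699018084893658348464585920425813260613701793470318078951955450406228359524590664432469743770998925284302653611556146423099324109223506494449455678489610054068863225568992664589009484895522304316050858087546938755003630289160274118114726665559693490974481570799889723044273607234305760513596824537344852397465449224991212523578564151552868613567414639762749110770463073942844698540979268747479556754814002363146773105924300214934890760102445247777479289029869736295644101773872035300092992882945262869892304695592686709443251039650181633961921968320540703444326361434495906046548041580321273342491220902528892767103365590209165135140737082958652203560997818343159600880268192442310238249890970061705669515249589088448918869642299524445305647919347911663872005250213998762256548602545173557564703235275769144347414816478877512109893104541)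 (by decide +kernel)

theorem root : Valid 8 2855755826665480369680847949136815667397016321613000082277519686356862391919927008251807850435216190063147517994338641382935873117401143459560255035562122018816 74751027140037200596569255147680988823134319808072143493670254510519546872761244944899259944796954063657797923755753711682346829571458623407143682281270829219466877382349755260945938541568046661632 := n251

end Vale.Agent.Snaky.Data.L316
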