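import Vale.Agent.Snaky.Fast

namespace Vale.Agent.Snaky.Data.L32

theorem n199 : Valid 8 2855755826665480369680847949136815667397016321613000082277519686356862391919927008251807850435216190063147517994338641382935873117401143459560255035562122018816 481579825232487985763914885099053379771068584597477865007693620551738668951891016832579302436610042645775834726458316622472778348845239187460877318598080473857921118167845419440209423806464748817700771332096 :=
  Fast.check_sound (s := 1276230065930674673432083729824020409697451231367635835948758247751753108572082507052440907832482987650634771623901283245754697051304711573428874332639485162765438925649747923466223874950887111136234534842350125621406943886342840511531001936925308819693754829732263651798223804550148652238559504507965848047776471044744134603208344651973617896234058162622187461820522521759456549657327416086307346376110624248497917644396243951917992817628705664758132547637631947164162199329822205975739895965913174553765868593955605805555084083187791578676824469409335774233169873692259098747376386584231302245647099664484956341949885805620594139885809363981010668533706353537658796277773849246535716251564280884031503229891636618503297497291574602360919126033575306899272242660247021664478469757031412299332542400325922154300021179790517346992464672285503805357500298055086458405184609473297293943241884239894720310218538491839612822928620519552994188279368015383441552388580087064815869806157788029665923413256170416431923868906099248004810611111014059244307912479161067898148421226976248144464510877266405775466377786780931407784151614133904077502734060823556643432580731570995886826997978968154735641538228112117264423545589817416036714672738264010989270669455995307204270868829559198202087034689758521035344300071575419489219088942249323424481094665207855133204174187837849061697792587635707265895390728848990656817075352612703120796479278632313376244776967611309209242545579408641902700299920182272571620550394986484212208397823556105196616520815268268521561970711029888895141974415045120310335709976613724037283514739507221572732996699415213512509513137879358416516962189012904754813712109415937241028871703721254974562154595421)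 (by decide +kernel)

theorem root : Valid 8 2855755826665480369680847949136815667397016321613000082277519686356862391919927008251807850435216190063147517994338641382935873117401143459560255035562122018816 481579825232487985763914885099053379771068584597477865007693620551738668951891016832579302436610042645775834726458316622472778348845239187460877318598080473857921118167845419440209423806464748817700771332096 := n199

end Vale.Agent.Snaky.Data.L32
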