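import Vale.Agent.Snaky.Fast

namespace Vale.Agent.Snaky.Data.L320

theorem n346 : Valid 8 2855755826665480369680847949136815667397016321613000082277519686356862391919927008251807850435216190063147517994338641382935873117401143459560255035562122018816 139234638025428946007464673751976793057876891427590464538727378688287720843756658619221585214040470254303428515295692536897430209827264201288858758612326195506827466685102170752667889958912 :=
  Fast.check_sound (s := 452495424917563149327942277486828134990817072542219177997719257988756723138292376246696692598383396355553800946885644536600965124288202884231052287645434597578465571348961071563084558326363078962754733704233330647049051468417968276049396373915664144719738214128588585403215533285240917180399221022902459343079644162604136414581747482053170189517589800871648714923885826472171364517228240829007017950979882908702525808111921386944680290318504008480062302233958214961395555162667622685479517255089925986934958344092403368583860174745170096022870908042445488244870638647247774840446868092282173215725599087001174485136189063735481665982702671025472577453443555220805569141458340366911579474852249509822116068546384360872559191938306318516926985202012175976717859234307755546649582663555240300456408989752943484551446709660100349720918749454561635442449492909163911348686145764425073387049747770448173900350856685943967695231575555302742275043710531853636638252716116682634276072361393164077754493114740131365061494943330548278052354188720731710729911234655743036308256718891414728631817903571204754835513259728757584457645725843852023588732203510676246720458947052687560152759467525234214086475404753263405460477645981834958159941588814821818053361759618288148951570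326898404836653805096657815858775089600689867998343950712268924095742048828842602969088019644377953786905536266454073351158703967603951276798799743954875315301574862431367062382957391897602405116179596449754635499781723188009784475692435954740135387522918030630565648208506504761008570378759203444659280426520066025266695234279822434609471104584803255623403041200094503618916369377626698297857693500012267590513025193150300516056565953180067286268314129444854483783891994489748307307147822156351400071274345519871749270772584767044377098746515991384427030440993556144674945064865615976793469210453276393493578141245971500875701474917667552382851690431585705056840498076003521103299353820076087689934967046815929124588726278683681477930104138872835179231739896897590547754160336394241842440818628487738121845773733665367350391246529576702529912661978952297952536059808775298199423732724898014878379465005560703476282024365144320050371387596565615564527894742071611450503595938983596915254755460607909633980364015995439349565843082771708777419339148503250930622058885672478604886344212792983552509870569385388836861853300005086188300383426449224890838616076244056906339815412596993070532582502656798566714364313269232863111905926056255351425968084720049744248231629126808400466155352729648542535094005842594571273566700318940309065275232699302060416148976078975825169178352692124554711343788019074643546231771023384355085854324171291931324640741892246194732675868984473143861746001363861028291598615957923713256945595316808956804830368108895657717464314300504929696896600264541645234836849035230245033129872733021031228076222775992724425011320327814946569577631375603246388150131084571018576612510978153223354579463382232805163933) (by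 decide +kernel)

theorem root : Valid 8 2855755826665480369680847949136815667397016321613000082277519686356862391919927008251807850435216190063147517994338641382935873117401143459560255035562122018816 139234638025428946007464673751976793057876891427590464538727378688287720843756658619221585214040470254303428515295692536897430209827264201288858758612326195506827466685102170752667889958912 := n346

end Vale.Agent.Snaky.Data.L320
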