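import Vale.Agent.Snaky.Fast

namespace Vale.Agent.Snaky.Data.L34

theorem n193 : Valid 8 2855755826665480369680847949136815667397016321613000082277519686356862391919927008251807850435216190063147517994338641382935873117401143459560255035562122018816 481579825232487985763914885099053379771068584597477865007693620551738668951891016832578656874140520918628420746665315869504195922397031881582669653758945311952416907869188008101889389348605773024707584458752 :=
  Fast.check_sound (s := 5160021001580979694189339826571243512148059119125577871398190437711480523309424389074926007105726516426526404563471801062954004684911801906420116089911215354396476449867846361008703399426281003682095043086618444606974556413537531831516764638730501579450152658133775306122198598779014683048078010533870129172599070289088379046241417425644420748345395530423921037385458873613176154616235208879133545801061514973958105697182032213701719047993694739848614760370642640583677558599359515598951359891447624702325345190184024681170290324478062571654190297491014698261461642404011806919628955913126252316879178034193477667946365726482489636127183931660198995405585208270109341822650018620116212316870041491448682881787792636483631812263420624536002400007994469351494248996080491856020435466569072729043412610801182738414720182497890886531910408130717832390285452516810280286951696441151975844992267279604144001702607369952915731245828300788488467764075321482595882395169802330492974357178103368298895871496836299547264157632805704915892754631316867461049237632372732189457406347625785281382984567276033406143649050830064795678384631259417743610266022782900698074334664173578659308177902889660041720006680768239230787566604406391425828585205181506214957012351278424133987058172250613906258609749345928177528704813277947275951263093236224993342508408446049145495497521492829924767091624741283596844005778853936309966600643064571970745152825615299567618736141033832465607440844551613592911537202778105232484606084731319393122435559509997235391777121968864349)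 (by decide +kernel)

theorem root : Valid 8 2855755826665480369680847949136815667397016321613000082277519686356862391919927008251807850435216190063147517994338641382935873117401143459560255035562122018816 481579825232487985763914885099053379771068584597477865007693620551738668951891016832578656874140520918628420746665315869504195922397031881582669653758945311952416907869188008101889389348605773024707584458752 := n193

end Vale.Agent.Snaky.Data.L34
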