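import Vale.Agent.Snaky.Fast

namespace Vale.Agent.Snaky.Data.L39

theorem n128 : Valid 8 2855755826665480369680847949136815667397016321613000082277519686356862391919927008251807850435216190063147517994338641382935873117401143459560255035562122018816 186877567758720270289894688529371348423710303599955902963431703741990999701932927425568346152893123299463926477357928566202476994884161789715967905648928539654753869659500560355802385489875418742784 :=
  Fast.check_sound (s := 20387401514311202357307479612753471785747627156303577980419126830573842989832367738732549824096096838879725544447858856617885666202801495748711696375033880206972208222643393172388793510633713715338985683345484851102691483943420612786876636196570815556356550597577805696555171645497061516440603176221400646787238782501477867015087977935342974930691704989259720711027378509064455275412175479945020677071931022231972025967054951009856204872273561908530745428112927414628105522727676812274493204341763378842581161523995975428218378263058140385381956794003092069368625646031459070355161889999127351066953026782779738953794331784294954100567464386419049355952613786957166637642022065948375456072473761153500249715548495160665248546461988966467968082359523811599131396130931677370724726596659196594155984784122378616158831413181452729584437541934145286435258182374986139689607252076559885364242160497077856510921519944307184824260039493716762892629698754026083644943085163412959850164038898243150407592752588651668419326784605) (by decide +kernel)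

theorem root : Valid 8 2855755826665480369680847949136815667397016321613000082277519686356862391919927008251807850435216190063147517994338641382935873117401143459560255035562122018816 186877567758720270289894688529371348423710303599955902963431703741990999701932927425568346152893123299463926477357928566202476994884161789715967905648928539654753869659500560355802385489875418742784 := n128

end Vale.Agent.Snaky.Data.L39
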