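import Vale.Agent.Snaky.Fast

namespace Vale.Agent.Snaky.Data.L40

theorem n59 : Valid 8 4052261297735344688903029131051379931216439972811070452549025432639028218422937798075326306907333057361376099079064616999080282716420453207044149322590561122705940390446408663040 555850781407076291418638878522857985667576677984419102844885015598874406332126347087917816929253333933846741607328313163982758767497070786406275828331713007133115030054832917236946705580032 :=
  Fast.check_sound (s := 1316811165130895025116326671925187513051212856877271271362562818282611271190573390096901302619950650802779200001073002905045645531539867799671665037511518832453147480139091288947713294541328584402386890182098036463477154635784110950845069705656108774657386603783687320530026722513263965199884317598416808048011261947533366383526896503626845) (by decide +kernel)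

theorem root : Valid 8 4052261297735344688903029131051379931216439972811070452549025432639028218422937798075326306907333057361376099079064616999080282716420453207044149322590561122705940390446408663040 555850781407076291418638878522857985667576677984419102844885015598874406332126347087917816929253333933846741607328313163982758767497070786406275828331713007133115030054832917236946705580032 := n59

end Vale.Agent.Snaky.Data.L40
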