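import Vale.Agent.Snaky.Fast

namespace Vale.Agent.Snaky.Data.L41

theorem n47 : Valid 8 4052261297735344688903029131051379931216439972811070452549025432639028218422937798075326306907333057361376099079064616999080282716420453207044149322590561122705940390446408663040 186877567765246893959556770849388064641441559577759158170594865538419075061922242287142452900412477283063047896616813111382993616258496363348344202385869652466253044326375070307606764246791656308736 :=
  Fast.check_sound (s := 4689414610655743570454136427822999379502106728422571613730838645114786403194126687489817563261563060397395872782672588139627037698447682086000008228212813951435556964430004962529846942820405339560936077053277257339877470815268264184148714674406451401512055195263470719418710876851362430587013358326838818612431280289372709981) (by decide +kernel)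

theorem root : Valid 8 4052261297735344688903029131051379931216439972811070452549025432639028218422937798075326306907333057361376099079064616999080282716420453207044149322590561122705940390446408663040 186877567765246893959556770849388064641441559577759158170594865538419075061922242287142452900412477283063047896616813111382993616258496363348344202385869652466253044326375070307606764246791656308736 := n47

end Vale.Agent.Snaky.Data.L41
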