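import Vale.Agent.Snaky.Fast

namespace Vale.Agent.Snaky.Data.L410

theorem n229 : Valid 11 4052261297735344688903029131051379931216439972811070452549025432639028218422937798075326306907333057361376099079064616999080282716420453207044149322590561122705940390446408663040 34264774204498796636475283658526667313183614432015760298928881213471644067983445302056305767882119937598083291666683489284626472948987244481514230833474123185888982789658351327371461656576 :=
  Fast.check_sound (s := 8570077093972867581010053316809919245063022644160023105540463458683649351048245802545856809420407079267225272929443861787251496921295273557588454148224269906362670090933214117544331134685644717946185953109369282932525345207086350675609280739396157010815567132640950857841532492920529824280607308419100768458067044389052900689416817400773107577018116209367971110121831172432428548667259682562662388060162857525412429531000535882548278041344068508619505305680654963448685910901502981105730883800592551871880272976741639464908440382940967610977135555373989428631873068359513066864446356662981675208407024338231884994175001417170818602849746725112388381684561410703376200046856646460027226527271289370031685717497286380421471268274399376208293785682084246360873792041649459289365536411993894429668211259515237862334317922714866510618505146939711981420180254223836477533778609571682570352149547489754265251267591598675610358840362452082658438954266513089448498213008526236940638450907531483788475383511065241314708117451616435913960615330347459790658957579226429543309076874701862926149578820683344367405071933348723251281927502857214617658444703488816552703894273252480123625998096215839869844725595864698591807014476386132269554656088446009911836619009924646348157221769085666673193691682607012065020091873199296738420827525913524665345018791705121931651409265966162117719526329637902305061819579017991492392242653901566127831648453963030945239112844446615941114364775521127751274688231410941509828870754018720210767545062336352291961876806465007806574896004394790474320447022177275398766220743526048630444386035153639516285354310685148442290046878493975515)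 (by decide +kernel)

theorem root : Valid 11 4052261297735344688903029131051379931216439972811070452549025432639028218422937798075326306907333057361376099079064616999080282716420453207044149322590561122705940390446408663040 34264774204498796636475283658526667313183614432015760298928881213471644067983445302056305767882119937598083291666683489284626472948987244481514230833474123185888982789658351327371461656576 := n229

end Vale.Agent.Snaky.Data.L410
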