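import Vale.Agent.Snaky.Fast

namespace Vale.Agent.Snaky.Data.L42

theorem n48 : Valid 8 4052261297735344688903029131051379931216439972811070452549025432639028218422937798075326306907333057361376099079064616999080282716420453207044149322590561122705940390446408663040 186877568253655897562365414057014352147606670742851280561826282391804054899054448797925764884447714937425764045842147600720377225797054167685266863006213794848226623205054974420695858457604366794752 :=
  Fast.check_sound (s := 263250268013943939074506090030121946914015215874769777989173378727222467453774456023072428915101469596169747649315742290460053733938663438948068916096044893053159064533042135530616985776807210588251505456098531601193588772720049196122867673297149913565625118543006290657508799290461) (by decide +kernel)

theorem root : Valid 8 4052261297735344688903029131051379931216439972811070452549025432639028218422937798075326306907333057361376099079064616999080282716420453207044149322590561122705940390446408663040 186877568253655897562365414057014352147606670742851280561826282391804054899054448797925764884447714937425764045842147600720377225797054167685266863006213794848226623205054974420695858457604366794752 := n48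

end Vale.Agent.Snaky.Data.L42
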