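import Vale.Agent.Snaky.Fast

namespace Vale.Agent.Snaky.Data.L44

theorem n71 : Valid 8 4052261297735344688903029131051379931216439972811070452549025432639028218422937798075326306907333057361376099079064616999080282716420453207044149322590561122705940390446408663040 186877567765246893959556770849388064641537666744818776487230188274996435320238361956520407432757424537905111619477162041956731016346968373123220726275726120638957581902957027803389254055057541824512 :=
  Fast.check_sound (s := 493852999232171207073135458255236342242753674086664479740044762444387392465267835603818234888698322944718410225981897509834664738291370990652931948174915736888539715579817166842501176077827278679634009445916470801211964975960269239825041688319517796506069450436632061764452147408507881981083134166014933763906432077594770331680223714661719256822981493950068026907483212625510148285170459741) (by decide +kernel)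

theorem root : Valid 8 4052261297735344688903029131051379931216439972811070452549025432639028218422937798075326306907333057361376099079064616999080282716420453207044149322590561122705940390446408663040 186877567765246893959556770849388064641537666744818776487230188274996435320238361956520407432757424537905111619477162041956731016346968373123220726275726120638957581902957027803389254055057541824512 := n71

end Vale.Agent.Snaky.Data.L44
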