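import Vale.Agent.Snaky.Fast

namespace Vale.Agent.Snaky.Data.L45

theorem n53 : Valid 8 4052261297735344688903029131051379931216439972811070452549025432639028218422937798075326306907333057361376099079064616999080282716420453207044149322590561122705940390446408663040 538446451723039381591627207502887606031261191857179659377344133188538940151790621733073223094329541471915011270994040967554380087418769331559384536925019514057321918688943496475720678375424 :=
  Fast.check_sound (s := 562030810009724656220003029493845560720993821747230148210242552990929495338346923808335197202798607439963618716043004055016844806360239058822912328902654251191121387082874743715609903758941895033149930253429550087764876514155304029) (by decide +kernel)

theorem root : Valid 8 4052261297735344688903029131051379931216439972811070452549025432639028218422937798075326306907333057361376099079064616999080282716420453207044149322590561122705940390446408663040 538446451723039381591627207502887606031261191857179659377344133188538940151790621733073223094329541471915011270994040967554380087418769331559384536925019514057321918688943496475720678375424 := n53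

end Vale.Agent.Snaky.Data.L45
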