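import Vale.Agent.Snaky.Fast

namespace Vale.Agent.Snaky.Data.L46

theorem n79 : Valid 8 4052261297735344688903029131051379931216439972811070452549025432639028218422937798075326306907333057361376099079064616999080282716420453207044149322590561122705940390446408663040 2757826132674679907891331277788353262239521341841231206512540392618545611992549366198072667393158120776452577175527124598939312580505069704727534293112734468163893013342827923672903248297637646852262007655366706331648 :=
  Fast.check_sound (s := 1451996936533314586835789505667118341373994464883891909922389110325583826692654054980717388127514879272633227789907504238320154558068970484853385818818765517828777521080226618046506426066073424871530828507518501410675654792892711907976295883370456737505746273935967301628493228970884386638631619664306371706097728569700024924390197394405080946823949894224709568300243283910541349880241586740474559630667334410916937741332395439159032647868124562486217750275869615216263439695233692300069651374677085) (by decide +kernel)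

theorem root : Valid 8 4052261297735344688903029131051379931216439972811070452549025432639028218422937798075326306907333057361376099079064616999080282716420453207044149322590561122705940390446408663040 2757826132674679907891331277788353262239521341841231206512540392618545611992549366198072667393158120776452577175527124598939312580505069704727534293112734468163893013342827923672903248297637646852262007655366706331648 := n79

end Vale.Agent.Snaky.Data.L46
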