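import Vale.Agent.Snaky.Fast

namespace Vale.Agent.Snaky.Data.L47

theorem n12 : Valid 5 4052261297735344688903029131051379931216439972811070452549025432639028218422937798075326306907333057361376099079064616999080282716420453207044149322590561122705940390446408663040 186877567758720270285842427229277277222039730187434981525131833245787390075600395451330828055781926832437651642739446574888572112052051490273955994957240780695410113349510766131785554331541526544384 :=
  Fast.check_sound (s := 3781390490415465041051106298500023747367122959122880233702798911617791432127111609083561514077) (by decide +kernel)

theorem root : Valid 5 4052261297735344688903029131051379931216439972811070452549025432639028218422937798075326306907333057361376099079064616999080282716420453207044149322590561122705940390446408663040 186877567758720270285842427229277277222039730187434981525131833245787390075600395451330828055781926832437651642739446574888572112052051490273955994957240780695410113349510766131785554331541526544384 := n12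

end Vale.Agent.Snaky.Data.L47
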