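import Vale.Agent.Snaky.Fast

namespace Vale.Agent.Snaky.Data.L48

theorem n140 : Valid 10 4052261297735344688903029131051379931216439972811070452549025432639028218422937798075326306907333057361376099079064616999080282716420453207044149322590561122705940390446408663040 149502054216983705835649938737756573589365534892585457017910525086286563376203425470632268794485854610594794645019516570701888720262843876779267395027231281186047465090922191682981400958154898931712 :=
  Fast.check_sound (s := 3044207128518302228983532386089683791145747170112193873726159462174175800356593458056829438013359874313020162192265263706926689089560404600421516657755570217659482614557339504991675841259955883372871318412165245664041449671593583034484396602006505093388441915885037860039182831414391764595770868844508722657254567184224448123615058023014144987294891556129013390016724225894472280344589915179526385120838083479505196706067958575868455470655186971134724768219399276462691400416640256262605252234276566448167313795202313101998705803441363647356169406894313415533008319976547362912940746177030888048913248834016196628829570399941840498366595781429914222008928582030616742754789593110286692560012290873079591538823375393020332264959097683266664094358711791882785646637993809381141401321671532323919853098243552061225534054295475904351991903327012090738077627468611385793888689423335485406125146647780247275251454783551155496534524613577113263399243604097709266125747431353627692990709409888894638367707) (by decide +kernel)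

theorem root : Valid 10 4052261297735344688903029131051379931216439972811070452549025432639028218422937798075326306907333057361376099079064616999080282716420453207044149322590561122705940390446408663040 149502054216983705835649938737756573589365534892585457017910525086286563376203425470632268794485854610594794645019516570701888720262843876779267395027231281186047465090922191682981400958154898931712 := n140

end Vale.Agent.Snaky.Data.L48
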