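import Vale.Agent.Snaky.Fast

namespace Vale.Agent.Snaky.Data.L49

theorem n63 : Valid 8 4052261297735344688903029131051379931216439972811070452549025432639028218422937798075326306907333057361376099079064616999080282716420453207044149322590561122705940390446408663040 689456534011434670868058199584056674862871484784602387703040170123916658648929461296158051669899110084710243380533343431490894270021930596843718050750279217956559484309188009437607849189668431713026537596440511774720 :=
  Fast.check_sound (s := 577460409063988796928055885512234038558224030802078947598282847024024179133484972153012461236153076884221953077465694644735839793821886199942274167235544631474600419658819226073954931432065993429239102824873805578575903962971852422412291207145578555219661151924481659295167939040118834226337564375503618832324164651385912192369764337944582767293127274592572396738127724007307965948374293597) (by decide +kernel)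

theorem root : Valid 8 4052261297735344688903029131051379931216439972811070452549025432639028218422937798075326306907333057361376099079064616999080282716420453207044149322590561122705940390446408663040 689456534011434670868058199584056674862871484784602387703040170123916658648929461296158051669899110084710243380533343431490894270021930596843718050750279217956559484309188009437607849189668431713026537596440511774720 := n63

end Vale.Agent.Snaky.Data.L49
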